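import Vale.Agent.P329.R2.H874.Part5
import Vale.Agent.P329.R2.H874.Six

/-! Group languages and generalized star height: average case, and first return codes
(helpers 446, 663, 96; 874, 989, 734, 520, 272). -/

namespace Vale.Agent.Results.P329.AverageCase

open Vale.Agent.P329 (GRE)
open Vale.Agent.P329.H259 Vale.Agent.P329.R2.H446 Vale.Agent.P329.R2.H874
open scoped MatrixGroups

/-- (1)-(6) Worst case and average case agree for group languages of bounded generalized star
height. `f` is extended to words by the product; `CosetBound f L R` says that within each coset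
of `R` all products are taken by equally many words of `L` of length `n`, up to an exponentially
small part of all words; `Independent f L` is the same for all of `G`; `Syn` is the syntactic
congruence; `GroupHeight h` says that every language recognised by a finite group over a finite
alphabet has height at most `h`. (7)-(10) First return codes: `Clean f H` says that every word
`v` fixes each coset of `H` from which reading `v, v, v, ...` never meets `H`; `Rec1 f` says
that every language recognised through `f` has height at most one. -/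
theorem result :
    (
    -- (1) every regular language against every finite group
    (∀ (α G : Type) [Finite α] [Group G] [Finite G] (f : α → G) (e : GRE α),
      Function.Surjective (fun w : List α => (w.map f).prod) →
      ∃ R : Subgroup G, R.Normal ∧ CosetBound f e.lang R ∧
        (∃ N : ℕ, 0 < N ∧ ∀ u v : List α, Syn e.lang u v → u.length ≡ v.length [MOD N] →
          (u.map f).prod * ((v.map f).prod)⁻¹ ∈ R) ∧
        (∀ u v : List α, Syn e.lang u v → ∀ k : G,
          ((u.map f).prod * ((v.map f).prod)⁻¹) * k *
            ((u.map f).prod * ((v.map f).prod)⁻¹)⁻¹ * k⁻¹ ∈ R)) ∧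
    -- (2) every finite group, every height `h ≥ 1`: one normal subgroup `R` describes both exact
    -- recognition by height `h` and the statistics of all languages of height at most `h`
    (∀ (α G : Type) [Finite α] [Group G] [Finite G] (f : α → G) (h : ℕ), 1 ≤ h →
      Function.Surjective (fun w : List α => (w.map f).prod) →
      ∃ R : Subgroup G, R.Normal ∧
        (∀ S : Set G, (∃ x : GRE α, x.height ≤ h ∧ x.lang = {w | (w.map f).prod ∈ S}) ↔
          ∀ s ∈ S, ∀ r ∈ R, s * r ∈ S) ∧
        ∀ e : GRE α, e.height ≤ h → CosetBound f e.lang R) ∧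
    -- (3) nonabelian simple groups, every height: exact recognition of all subsets, or
    -- independence of all languages of that height
    (∀ (α G : Type) [Finite α] [Group G] [Finite G] [IsSimpleGroup G] (f : α → G) (h : ℕ),
      (∃ a b : G, a * b ≠ b * a) →
      Function.Surjective (fun w : List α => (w.map f).prod) →
      (∀ S : Set G, ∃ x : GRE α, x.height ≤ h ∧ x.lang = {w | (w.map f).prod ∈ S}) ∨
      ∀ e : GRE α, e.height ≤ h → Independent f e.lang) ∧
    -- (4) nonabelian simple groups: a language of too small height is no better, on average,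
    -- than the better of the two constant guesses
    (∀ (α G : Type) [Finite α] [Group G] [Finite G] [IsSimpleGroup G] (f : α → G) (S : Set G)
      (h : ℕ), (∃ a b : G, a * b ≠ b * a) →
      Function.Surjective (fun w : List α => (w.map f).prod) →
      (¬ ∃ x : GRE α, x.height ≤ h ∧ x.lang = {w | (w.map f).prod ∈ S}) →
      ∀ e : GRE α, e.height ≤ h → ∃ C ρ : ℝ, 0 ≤ C ∧ 0 ≤ ρ ∧ ρ < 1 ∧ ∀ n : ℕ,
        ({w : List α | w.length = n ∧ (w ∈ e.lang ↔ (w.map f).prod ∈ S)}.ncard : ℝ) ≤
          (((max S.ncard Sᶜ.ncard : ℕ) : ℝ) / Nat.card G + C * ρ ^ n) *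
            (Nat.card α : ℝ) ^ n) ∧
    -- (5) every finite group, every height `h ≥ 1`: in a whole residue class of lengths a language
    -- of too small height errs on at least the fraction `1 / |G|` of all words
    (∀ (α G : Type) [Finite α] [Group G] [Finite G] (f : α → G) (S : Set G) (h : ℕ), 1 ≤ h →
      Function.Surjective (fun w : List α => (w.map f).prod) →
      (¬ ∃ x : GRE α, x.height ≤ h ∧ x.lang = {w | (w.map f).prod ∈ S}) →
      ∃ N : ℕ, 0 < N ∧ ∃ m : ℕ, ∀ e : GRE α, e.height ≤ h →
        ∃ C ρ : ℝ, 0 ≤ C ∧ 0 ≤ ρ ∧ ρ < 1 ∧ ∀ n : ℕ, n ≡ m [MOD N] →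
          (1 / Nat.card G - C * ρ ^ n) * (Nat.card α : ℝ) ^ n ≤
            ({w : List α | w.length = n ∧
              ¬ (w ∈ e.lang ↔ (w.map f).prod ∈ S)}.ncard : ℝ)) ∧
    -- (6) every level: one language over the alphabet of all elements of an alternating group
    -- which is not independent of the product
    (∀ h : ℕ, GroupHeight h ↔
      ∀ N : ℕ, ∃ n, N ≤ n ∧ ∃ e : GRE (alternatingGroup (Fin n)), e.height ≤ h ∧
        ¬ Independent (id : alternatingGroup (Fin n) → alternatingGroup (Fin n)) e.lang)) ∧
    (∀ (α G : Type) [Finite α] [Group G] [Finite G] (f : α → G),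
      Function.Surjective (fun w : List α => (w.map f).prod) →
      -- (7) the language of a subgroup is the star of a star-free language iff it is clean
      (∀ H : Subgroup G, (∃ e : GRE α, e.height = 0 ∧
        kst e.lang = {w | (w.map f).prod ∈ H}) ↔ Clean f H) ∧
      -- (8) if the conjugates of the clean subgroups meet in the identity: height one
      ((∀ g : G, (∀ H : Subgroup G, Clean f H → ∀ k, k * g * k⁻¹ ∈ H) → g = 1) → Rec1 f) ∧
      -- (9) conditions modulo m on the visits to the cosets; simple groups: maximality
      (∀ H : Subgroup G, Clean f H → ∀ m : ℕ, 0 < m → ∀ S : Set (G → ZMod m),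
        ∃ x : GRE α, x.height ≤ 1 ∧
          x.lang = {w | (fun k => (visits f H k w : ZMod m)) ∈ S}) ∧
      (IsSimpleGroup G → ∀ H : Subgroup G, Clean f H → H ≠ ⊤ → IsCoatom H)) ∧
    -- (10) generators of height one: named groups, then listed alphabets
    (∃ f : Bool → Matrix.SpecialLinearGroup (Fin 3) (ZMod 2),
      Subgroup.closure (Set.range f) = ⊤ ∧ Rec1 f) ∧
    (∀ (K : Type) [Field K], Nat.card K = 8 →
      ∃ f : Bool → SL(2, K), Subgroup.closure (Set.range f) = ⊤ ∧ Rec1 f) ∧
    (∃ f : Bool → PGL(2, ZMod 7), Subgroup.closure (Set.range f) = ⊤ ∧ Rec1 f) ∧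
    (∃ f : Bool → PGL(2, ZMod 11), Subgroup.closure (Set.range f) = ⊤ ∧ Rec1 f) ∧
    (∃ f : Bool → Equiv.Perm (Fin 11),
      Nat.card (Subgroup.closure (Set.range f)) = 7920 ∧ SharpT f 4 ∧ Rec1 f) ∧
    (∃ f : Bool → Equiv.Perm (Fin 12),
      Nat.card (Subgroup.closure (Set.range f)) = 95040 ∧ SharpT f 5 ∧ Rec1 f) ∧
    GoodAl p7 ∧ GoodAl p8 ∧ GoodAl q8 ∧ GoodAl p9 ∧ GoodAl r9 ∧ GoodAl p10 ∧ GoodAl q12 :=
  ⟨Six.six, part5⟩

end Vale.Agent.Results.P329.AverageCase
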