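import Vale.Agent.P329.R3.H96.Defs
import Vale.Agent.P329.R3.H96.Fin
import Vale.Agent.P329.R3.H96.Short
import Vale.Agent.P329.H647.Fac
import Vale.Agent.P329.H647.Ins
import Vale.Agent.P329.H647.Prod
import Vale.Agent.P329.H647.Sym
import Vale.Agent.P329.H647.Pump
import Vale.Agent.P329.R2.H162.ChainS

namespace Vale.Agent.Results.P329.ExtensionLevels

open Vale.Agent.P329 Vale.Agent.P329.H647 Vale.Agent.P329.H112 Vale.Agent.P329.H96

/-- `HeightLe h L`: the language `L` has generalized star height at most `h`. `MapLe h F`: all
languages recognised through the map `F` of the letters have generalized star height at most `h`.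
(1) Modular products: if `K` and `K'` are languages of generalized star height at most `h`, the set
of all words `w` for which the number of pairs `(x, y)` with `x ∈ K`, `y ∈ K'` and `w = x y` is
congruent to `r` modulo `n` has generalized star height at most `h + 1`.
(2) Let `MapLe h F` for a map `F` of the letters to a finite monoid. If `φ` is a map of the letters
to a finite monoid such that the values under `φ` of all nonempty words with idempotent value under
`F` are aperiodic, then `MapLe h φ`. If `K` is a regular language such that `x v y ∈ K` implies
`x v v y ∈ K` whenever the value of `v` under `F` is idempotent, then `K` has generalized star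
height at most `h`.
(3) Let `MapLe h F` for a map `F` of the letters to a finite group. All languages obtained from the
languages recognised through `F` and the language of the empty word by unions, concatenations and
Kleene stars, nested in any way (`RatOver F`), have generalized star height at most `h`.
(4) Let a finite group `G`, solvable of derived length at most `k`, act on the states of a finite
automaton so that it commutes with all letters. If for all states `x`, `y` the language of the
words leading from `x` to the orbit of `y` has height at most `h`, then for all `x`, `y` the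
language of the words leading from `x` to `y` has height at most `h + k`. In particular, if `N` is
a normal subgroup of a finite group, solvable of derived length at most `k`, and `MapLe h` holds
for the map of the letters to the quotient by `N` induced by `F`, then `MapLe (h + k) F`.
(5) Permutations: remove a point and bridge it (a letter which sends `x` to the removed point is
changed so that it sends `x` to the image of the removed point). If the bridged map of the letters
has level at most `h`, then `MapLe (h + 1) F`. If a finite group `G` has a homomorphism to a finite
power of the symmetric group on `n ≥ 4` points whose kernel is solvable of derived length at most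
`k`, then `MapLe (n - 3 + k) F` for all maps `F` of letters to `G`.
(6) `MapLe 1 F` if `F` is a map to a finite direct product of finite groups `H i`, each of which is
in the class `DividesProduct` (all maps of the letters allowed) or has an abelian normal subgroup
`A` and an element `g` such that the `i`-th coordinates of all letters are in `A`, `g A`,
`g⁻¹ A`.
(7) Let `M` be a finite monoid all of whose subgroups are solvable (`DL k e`: the maximal subgroup
of the idempotent `e`, that is the group of units of the local monoid `e M e`, has derived length at
most `k`). If the sum of the derived lengths of the maximal subgroups along each strictly descending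
chain of idempotents is at most `d` (`WCh n e`: there are such a chain ending in `e` and positive
numbers, at most the derived lengths of its maximal subgroups, with sum `n`), then `MapLe d φ` for
all maps `φ` of the letters to `M`. -/
theorem result :
    (∀ (h : ℕ) (α : Type) [Finite α] (K K' : Set (List α)), HeightLe h K → HeightLe h K' →
      ∀ n r : ℕ, 0 < n → HeightLe (h + 1) {w : List α |
        {x : List α × List α | x.1 ∈ K ∧ x.2 ∈ K' ∧ x.1 ++ x.2 = w}.ncard % n = r % n}) ∧
    (∀ (h : ℕ) (α : Type) [Finite α] (N : Type) [Monoid N] [Finite N] (F : α → N), MapLe h F →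
      (∀ (M : Type) [Monoid M] [Finite M] (φ : α → M),
        (∀ v : List α, v ≠ [] → (v.map F).prod * (v.map F).prod = (v.map F).prod →
          ∃ k, (v.map φ).prod ^ (k + 1) = (v.map φ).prod ^ k) → MapLe h φ) ∧
      ∀ K : Set (List α), (∃ m, HeightLe m K) →
        (∀ x v y : List α, (v.map F).prod * (v.map F).prod = (v.map F).prod →
          x ++ v ++ y ∈ K → x ++ v ++ v ++ y ∈ K) → HeightLe h K) ∧
    (∀ (h : ℕ) (α : Type) [Finite α] (G : Type) [Group G] [Finite G] (F : α → G), MapLe h F →
      ∀ K : Set (List α), RatOver F K → HeightLe h K) ∧
    (∀ (h k : ℕ) (α X G : Type) [Finite α] [Finite X] [Group G] [Finite G] [MulAction G X]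
      (δ : X → α → X), (∀ (g : G) (x : X) (a : α), δ (g • x) a = g • δ x a) →
        derivedSeries G k = ⊥ →
          (∀ x y : X, HeightLe h {w : List α | w.foldl δ x ∈ MulAction.orbit G y}) →
            ReachLe (h + k) δ) ∧
    (∀ (h k : ℕ) (α : Type) [Finite α] (G : Type) [Group G] [Finite G] (N : Subgroup G) [N.Normal]
      (F : α → G), derivedSeries N k = ⊥ → MapLe h (fun x => (F x : G ⧸ N)) → MapLe (h + k) F) ∧
    (∀ (h : ℕ) (α X : Type) [Finite α] [Finite X] (F : α → Equiv.Perm (Option X)),
      MapLe h (fun x => Equiv.removeNone (F x)) → MapLe (h + 1) F) ∧
    (∀ (n k : ℕ) (ι : Type) [Finite ι] (G : Type) [Group G] [Finite G]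
      (π : G →* (ι → Equiv.Perm (Fin n))), 4 ≤ n → derivedSeries π.ker k = ⊥ →
        ∀ (α : Type) [Finite α] (F : α → G), MapLe (n - 3 + k) F) ∧
    (∀ (α : Type) [Finite α] (ι : Type) [Finite ι] (H : ι → Type)
      [∀ i, Group (H i)] [∀ i, Finite (H i)] (F : α → ∀ i, H i),
      (∀ i, DividesProduct (H i) ∨ ∃ (A : Subgroup (H i)) (g : H i), A.Normal ∧
        (∀ a ∈ A, ∀ b ∈ A, a * b = b * a) ∧
          ∀ x, F x i ∈ A ∨ g⁻¹ * F x i ∈ A ∨ g * F x i ∈ A) → MapLe 1 F) ∧
    (∀ (d : ℕ) (M : Type) [Monoid M] [Finite M],
      (∀ e : M, e * e = e → ∃ k, H162.Chain.DL k e) →
        (∀ (n : ℕ) (e : M), H162.Chain.WCh n e → n ≤ d) →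
          ∀ (α : Type) [Finite α] (φ : α → M), MapLe d φ) := by
  refine ⟨fun h α _ K K' hK hK' n r hn => cutprod hK hK' n r hn,
    fun h α _ N _ _ F hF => ⟨fun M _ _ φ hap => H162.Str.straubing F hF φ hap,
      fun K hK hI => pump_sh hF hK hI⟩,
    fun h α _ G _ _ F hF K hK => hK.sh hF,
    fun h k α X G _ _ _ _ _ δ hc hk ho => aut_symm hc hk ho,
    fun h k α _ G _ _ N _ F hk h0 => MapLe.solv N hk F h0,
    fun h α X _ _ F hF => MapLe.short F hF,
    fun n k ι _ G _ _ π hn hk α _ F => perm_pow hn π hk F,
    fun α _ ι _ H _ _ F hF => MapLe.pi F hF,
    fun d M _ _ hsol hch α _ φ => H162.Chain.solv_chain_bound d M hsol hch α φ⟩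

end Vale.Agent.Results.P329.ExtensionLevels
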