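import Vale.Agent.P329.R2.H96.Rep

namespace Vale.Agent.Results.P329.ManyMarkers

open Vale.Agent.P329

/-- (1) For every regular language `L` there is `C` such that for all `a > 0` and every finite set
`X` of words: if for every `s` in `X` and every `p < a` at least `C * (log₂ (a * |X|) + 1)`
different words occur among the blocks of length `a` of `s` at the places `p, p + a, p + 2 * a, ...`,
then for every `m` the words of `L` in which every factor of length `m` contains a word of `X` form
a language of generalized star height at most one.
(2) For every regular language `L` there is `C` such that the same holds for all `a > 0` and every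
finite set `X` of words `s` of length at least `C * a * (log₂ (a * |X|) + 1)` in which no word of
length `a` occurs at two different places of `s`. -/
theorem result :
    (∀ (α : Type) [Finite α] (L : Language α), L.IsRegular → ∃ C : ℕ, ∀ a : ℕ, 0 < a →
      ∀ X : Finset (List α), (∀ s ∈ X, ∀ p < a, C * (Nat.log 2 (a * X.card) + 1) ≤
        {b : List α | ∃ i : ℕ, p + (i + 1) * a ≤ s.length ∧
          b = (s.drop (p + i * a)).take a}.ncard) → ∀ m : ℕ,
        ∃ e : GRE α, e.height ≤ 1 ∧ e.lang =
          {w : List α | w ∈ L ∧ ∀ u : List α, u <:+: w → u.length = m → ∃ s ∈ X, s <:+: u}) ∧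
    (∀ (α : Type) [Finite α] (L : Language α), L.IsRegular → ∃ C : ℕ, ∀ a : ℕ, 0 < a →
      ∀ X : Finset (List α), (∀ s ∈ X, (∀ i j : ℕ, i < j → j + a ≤ s.length →
        (s.drop i).take a ≠ (s.drop j).take a) ∧
          C * a * (Nat.log 2 (a * X.card) + 1) ≤ s.length) → ∀ m : ℕ,
        ∃ e : GRE α, e.height ≤ 1 ∧ e.lang =
          {w : List α | w ∈ L ∧ ∀ u : List α, u <:+: w → u.length = m → ∃ s ∈ X, s <:+: u}) :=
  ⟨fun _ _ L hL => Blk.regular_blk L hL, fun _ _ L hL => Blk.regular_rep L hL⟩

end Vale.Agent.Results.P329.ManyMarkers
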