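import Vale.Agent.P329.R2.H96.Cpx

namespace Vale.Agent.Results.P329.SubquadraticComplexity

open Vale.Agent.P329

/-- (1) Rare branching. For every regular language `L` and every `N` there is `C` such that for
every set `F` of words which is closed under factors and contains no `N`-th power of a nonempty
word, and all `a`, `b` with `C * (log₂ p + 1) ≤ b ≤ a`, where `p` is the number of words of length
`3 * a` in `F`: if every word of length `2 * a` in `F` has at most `a / C` factors of length `a`
with two different continuations of length `b` in `F`, then the words of `L` all of whose factors of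
length `3 * a` are in `F` form a language of generalized star height at most one.
(2) Subquadratic complexity. For every regular language `L` and every `N` there is `C` such that for
every set `F` of words which is closed under factors, right-extendable and contains no `N`-th power
of a nonempty word, and every `n ≥ C` with `C * p(n) * log₂ n ≤ n ^ 2`, where `p(n)` is the number
of words of length `n` in `F`, there is `m ≤ n`, `m > 0`, such that the words of `L` all of whose
factors of length `m` are in `F` form a language of generalized star height at most one. -/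
theorem result :
    (∀ (α : Type) [Finite α] (L : Language α), L.IsRegular → ∀ N : ℕ, ∃ C : ℕ,
      ∀ F : Set (List α), (∀ w ∈ F, ∀ u : List α, u <:+: w → u ∈ F) →
      (∀ z : List α, z ≠ [] → (List.replicate N z).flatten ∉ F) → ∀ a b : ℕ,
      C * (Nat.log 2 {u : List α | u ∈ F ∧ u.length = 3 * a}.ncard + 1) ≤ b → b ≤ a →
      (∀ s ∈ F, s.length = 2 * a → C * {l : List α | l <:+: s ∧ l.length = a ∧
        ∃ r r' : List α, r.length = b ∧ r'.length = b ∧ l ++ r ∈ F ∧ l ++ r' ∈ F ∧ r ≠ r'}.ncard
          ≤ a) →
        ∃ e : GRE α, e.height ≤ 1 ∧ e.lang =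
          {w : List α | w ∈ L ∧ ∀ u : List α, u <:+: w → u.length = 3 * a → u ∈ F}) ∧
    (∀ (α : Type) [Finite α] (L : Language α), L.IsRegular → ∀ N : ℕ, ∃ C : ℕ,
      ∀ F : Set (List α), (∀ w ∈ F, ∀ u : List α, u <:+: w → u ∈ F) →
      (∀ w ∈ F, ∃ x : α, w ++ [x] ∈ F) →
      (∀ z : List α, z ≠ [] → (List.replicate N z).flatten ∉ F) → ∀ n : ℕ, C ≤ n →
      C * ({u : List α | u ∈ F ∧ u.length = n}.ncard * Nat.log 2 n) ≤ n ^ 2 →
        ∃ m : ℕ, 0 < m ∧ m ≤ n ∧ ∃ e : GRE α, e.height ≤ 1 ∧ e.lang =
          {w : List α | w ∈ L ∧ ∀ u : List α, u <:+: w → u.length = m → u ∈ F}) :=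
  ⟨fun _ _ L hL N => Lab.regular_det L hL N, fun _ _ L hL N => Lab.regular_sub L hL N⟩

end Vale.Agent.Results.P329.SubquadraticComplexity
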